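import Vale.Agent.P150.Main

/-!
# P150: the SK Glauber dynamics mixes in time `O(log n)` for every `β < 1/2`

For every fixed `β < 1/2`, with probability tending to one, the heat-bath dynamics of the
Sherrington-Kirkpatrick model has spectral gap in `[1 - 2β - ε, 1]` and mixing time at most
`C_β log n`, uniformly over all external fields (`h = 0` is the zero-field model).
-/

open MeasureTheory ProbabilityTheory Filter Topology
open P150.SK

namespace Vale.Agent.Results.P150.FastMixingHalf

theorem result (β : ℝ) (hβ0 : 0 ≤ β) (hβ : β < 1/2) :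
    ∃ C : ℝ, ∀ ε : ℝ, 0 < ε → Tendsto (fun n : ℕ => disorderLaw n
      {g | ∀ h : Fin n → ℝ, 1 - 2 * β - ε ≤ gap β g h ∧ gap β g h ≤ 1 ∧
        tmix β g h ≤ C * Real.log n})
      atTop (𝓝 1) :=
  P150.main β hβ0 hβ

end Vale.Agent.Results.P150.FastMixingHalf
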