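import Vale.Agent.P150.Main2

/-!
# P150: orders of growth of the mixing time and of the relaxation time of SK Glauber dynamics

* for every fixed `β ≥ 0`: with probability tending to one `t_mix ≥ c_β log n` and `gap ≤ 1`
  at zero field;
* for every fixed `β < 1/2`: with probability tending to one `t_mix ≤ C_β log n` and
  `1 - 2β - ε ≤ gap ≤ 1`, simultaneously for all external fields (`h = 0` included).
-/

open MeasureTheory ProbabilityTheory Filter Topology
open P150.SK

namespace Vale.Agent.Results.P150.OrderBelowHalf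

theorem result :
    (∀ β : ℝ, 0 ≤ β → ∃ c : ℝ, 0 < c ∧ Tendsto (fun n : ℕ => disorderLaw n
      {g | c * Real.log n ≤ tmix β g 0}) atTop (𝓝 1)) ∧
    (∀ β : ℝ, 0 ≤ β → β < 1/2 → ∃ C : ℝ, ∀ ε : ℝ, 0 < ε →
      Tendsto (fun n : ℕ => disorderLaw n
        {g | ∀ h : Fin n → ℝ, 1 - 2 * β - ε ≤ gap β g h ∧ gap β g h ≤ 1 ∧
          tmix β g h ≤ C * Real.log n})
        atTop (𝓝 1)) :=
  ⟨fun β hβ => P150.main_lower β hβ, fun β hβ0 hβ => P150.main β hβ0 hβ⟩

end Vale.Agent.Results.P150.OrderBelowHalf
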